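import Mathlib

/-!
# P192, round 5, row P6: finite windows of locally constant functions on `A^H`
-/

namespace Vale.Agent.P192.R2.H360

open Topology

/-- (P6) a locally constant function on `A^H`, `A` finite, has a finite window and finite range -/
theorem exists_window (H A T : Type) [Finite A] [TopologicalSpace A] [DiscreteTopology A]
    (c : (H → A) → T) (hc : IsLocallyConstant c) :
    (∃ W : Finset H, ∀ ω ω' : H → A, (∀ k ∈ W, ω k = ω' k) → c ω = c ω') ∧
      (Set.range c).Finite := by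
  classical
  refine ⟨?_, hc.range_finite⟩
  have h1 : ∀ ω : H → A, ∃ F : Finset H, ∀ ω' : H → A, (∀ k ∈ F, ω' k = ω k) → c ω' = c ω := by
    intro ω
    have ho : IsOpen (c ⁻¹' {c ω}) := hc.isOpen_fiber (c ω)
    obtain ⟨I, u, hu, hI⟩ := isOpen_pi_iff.1 ho ω rfl
    refine ⟨I, fun ω' h => ?_⟩
    have : ω' ∈ (I : Set H).pi u := fun k hk => by
      rw [h k hk]
      exact (hu k hk).2
    exact hI this
  choose F hF using h1
  obtain ⟨t, -, ht⟩ := (isCompact_univ (X := H → A)).elim_nhds_subcover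
    (fun ω => (F ω : Set H).pi fun k => {ω k}) (fun ω _ =>
      set_pi_mem_nhds (F ω).finite_toSet fun k _ => (isOpen_discrete _).mem_nhds rfl)
  refine ⟨t.biUnion F, fun ω ω' h => ?_⟩
  obtain ⟨ω₀, hω₀, hω⟩ := Set.mem_iUnion₂.1 (ht (Set.mem_univ ω))
  have h2 : ∀ k ∈ F ω₀, ω k = ω₀ k := fun k hk => hω k hk
  have h3 : ∀ k ∈ F ω₀, ω' k = ω₀ k := fun k hk => by
    rw [← h k (Finset.mem_biUnion.2 ⟨ω₀, hω₀, hk⟩)]
    exact h2 k hk
  rw [hF ω₀ ω h2, hF ω₀ ω' h3]

end Vale.Agent.P192.R2.H360
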